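import Vale.Agent.P004G.H392.ML1
import Vale.Agent.P004H.H742.L7

/-!
# P004H/H742: the glue, from the congruences modulo `p` and `5` to the trace identity

The number of points of `y² + y = x³ - x² - 10 x - 20` over `F_p` is divisible by `5`, since
`(5, 5)` has order `5`.
-/

open WeierstrassCurve Polynomial P004G P004G.ML

namespace Vale.Agent.P004H.H742

section torsion

variable {F : Type} [Field F]

/-- `y² + y = x³ - x² - 10 x - 20` -/
def E11 (F : Type) [Field F] : WeierstrassCurve F := ⟨0, -1, 1, -10, -20⟩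

lemma E11_Δ : (E11 F).Δ = -11 ^ 5 := by
  simp only [E11, WeierstrassCurve.Δ, WeierstrassCurve.b₂, WeierstrassCurve.b₄,
    WeierstrassCurve.b₆, WeierstrassCurve.b₈]
  ring

lemma E11_ell (h : (11 : F) ≠ 0) : (E11 F).IsElliptic := by
  refine ⟨?_⟩
  rw [E11_Δ, isUnit_iff_ne_zero]
  exact neg_ne_zero.2 (pow_ne_zero 5 h)

lemma ns (h : (11 : F) ≠ 0) {x y : F} (he : y ^ 2 + y = x ^ 3 - x ^ 2 - 10 * x - 20) :
    (E11 F).toAffine.Nonsingular x y := by
  have := E11_ell h
  refine Affine.equation_iff_nonsingular.1 ((Affine.equation_iff ..).2 ?_)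
  simp only [E11]
  linear_combination he

open Classical in
/-- doubling a point -/
lemma dbl (h : (11 : F) ≠ 0) {x y x' y' l : F} (he : y ^ 2 + y = x ^ 3 - x ^ 2 - 10 * x - 20)
    (he' : y' ^ 2 + y' = x' ^ 3 - x' ^ 2 - 10 * x' - 20)
    (hne : 2 * y + 1 ≠ 0) (hl : 3 * x ^ 2 - 2 * x - 10 = l * (2 * y + 1))
    (hx : x' = l ^ 2 + 1 - 2 * x) (hy : y' = -(l * (x' - x) + y) - 1) :
    (Affine.Point.some x y (ns h he) : (E11 F).toAffine.Point) + Affine.Point.some x y (ns h he) =
      Affine.Point.some x' y' (ns h he') := by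
  have hn : y ≠ (E11 F).toAffine.negY x y := by
    intro h1
    apply hne
    simp only [Affine.negY, E11] at h1
    linear_combination h1
  have hs : (E11 F).toAffine.slope x x y y = l := by
    rw [Affine.slope_of_Y_ne rfl hn]
    have hd : y - (E11 F).toAffine.negY x y = 2 * y + 1 := by
      simp only [Affine.negY, E11]
      ring
    rw [hd, div_eq_iff hne]
    simp only [E11]
    linear_combination hl
  rw [Affine.Point.add_self_of_Y_ne hn]
  rw [Affine.Point.some.injEq]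
  have hX : (E11 F).toAffine.addX x x ((E11 F).toAffine.slope x x y y) = x' := by
    rw [hs, Affine.addX, hx]
    simp only [E11]
    ring
  refine ⟨hX, ?_⟩
  rw [Affine.addY, Affine.negAddY, hX, hs, Affine.negY, hy]
  simp only [E11]
  ring

open Classical in
lemma five_dvd (h : (11 : F) ≠ 0) [Finite F] : 5 ∣ affCard (E11 F) + 1 := by
  have hell := E11_ell h
  rw [← M1.card_point (E11 F)]
  have e1 : (5 : F) ^ 2 + 5 = 5 ^ 3 - 5 ^ 2 - 10 * 5 - 20 := by norm_num
  have e2 : (-61 : F) ^ 2 + (-61) = 16 ^ 3 - 16 ^ 2 - 10 * 16 - 20 := by norm_num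
  have e3 : (-6 : F) ^ 2 + (-6) = 5 ^ 3 - 5 ^ 2 - 10 * 5 - 20 := by norm_num
  set P : (E11 F).toAffine.Point := Affine.Point.some 5 5 (ns h e1) with hP
  have h1 : P + P = Affine.Point.some 16 (-61) (ns h e2) := by
    refine dbl h e1 e2 ?_ (l := 5) (by norm_num) (by norm_num) (by norm_num)
    have : (2 * 5 + 1 : F) = 11 := by norm_num
    rwa [this]
  have h2 : (P + P) + (P + P) = Affine.Point.some 5 (-6) (ns h e3) := by
    rw [h1]
    refine dbl h e2 e3 ?_ (l := -6) (by norm_num) (by norm_num) (by norm_num)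
    have : (2 * (-61) + 1 : F) = -11 ^ 2 := by norm_num
    rw [this]
    exact neg_ne_zero.2 (pow_ne_zero 2 h)
  have h3 : (P + P) + (P + P) = -P := by
    rw [h2, hP, Affine.Point.neg_some, Affine.Point.some.injEq]
    refine ⟨rfl, ?_⟩
    simp only [Affine.negY, E11]
    norm_num
  have h5 : 5 • P = 0 := by
    have : 5 • P = ((P + P) + (P + P)) + P := by
      simp only [succ_nsmul, zero_nsmul, zero_add]
      abel
    rw [this, h3, neg_add_cancel]
  have hP0 : P ≠ 0 := Affine.Point.some_ne_zero _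
  have : Fact (Nat.Prime 5) := ⟨by norm_num⟩
  have hord : addOrderOf P = 5 := addOrderOf_eq_prime h5 hP0
  rw [← hord]
  exact addOrderOf_dvd_natCard P

end torsion

lemma affCard_E11 (p : ℕ) [Fact p.Prime] : affCard (E11 (ZMod p)) = cnt p := by
  unfold affCard cnt
  refine Nat.card_congr (Equiv.subtypeEquivRight ?_)
  intro q
  simp only [E11]
  constructor
  · intro h
    linear_combination h
  · intro h
    linear_combination h

/-- `5` divides the number of points -/
lemma five_dvd_cnt {p : ℕ} (hp : p.Prime) (h11 : p ≠ 11) : 5 ∣ cnt p + 1 := by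
  have : Fact p.Prime := ⟨hp⟩
  rw [← affCard_E11 p]
  apply five_dvd
  have h := (Nat.coprime_primes hp (by norm_num : Nat.Prime 11)).2 h11
  intro h0
  have h1 : ((11 : ℕ) : ZMod p) = 0 := by exact_mod_cast h0
  rw [ZMod.natCast_eq_zero_iff] at h1
  exact h11 ((Nat.prime_dvd_prime_iff_eq hp (by norm_num)).1 h1)

/-- the number of points as a character sum -/
lemma cnt_char {p : ℕ} [Fact p.Prime] (hp2 : p ≠ 2) : (p : ℤ) - cnt p =
    -∑ t : ZMod p, quadraticChar (ZMod p) (4 * t ^ 3 - 4 * t ^ 2 - 40 * t - 79) := by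
  have hp : p.Prime := Fact.out
  have hchar : ringChar (ZMod p) ≠ 2 := by
    rw [ZMod.ringChar_zmod_n]
    exact hp2
  have h2 : (2 : ZMod p) ≠ 0 := by
    intro h
    have h1 : ((2 : ℕ) : ZMod p) = 0 := by exact_mod_cast h
    rw [ZMod.natCast_eq_zero_iff] at h1
    exact hp2 ((Nat.prime_dvd_prime_iff_eq hp Nat.prime_two).1 h1)
  have e1 : cnt p = ∑ x : ZMod p,
      ({y : ZMod p | y ^ 2 = 4 * x ^ 3 - 4 * x ^ 2 - 40 * x - 79}.toFinset).card := by
    unfold cnt
    rw [Nat.card_eq_fintype_card, Fintype.card_subtype, ← Finset.card_sigma]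
    refine Finset.card_bij (fun q _ => ⟨q.1, 2 * q.2 + 1⟩) ?_ ?_ ?_
    · intro q hq
      simp only [Finset.mem_filter, Finset.mem_univ, true_and] at hq
      simp only [Finset.mem_sigma, Finset.mem_univ, Set.mem_toFinset, Set.mem_ofPred_eq, true_and]
      linear_combination 4 * hq
    · rintro ⟨x, y⟩ _ ⟨x', y'⟩ _ h
      simp only [Sigma.mk.injEq, heq_eq_eq] at h
      rw [h.1]
      have : y = y' := mul_left_cancel₀ h2 (by linear_combination h.2)
      rw [this]
    · rintro ⟨x, y⟩ hq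
      simp only [Finset.mem_sigma, Finset.mem_univ, Set.mem_toFinset, Set.mem_ofPred_eq,
        true_and] at hq
      have e : 2 * ((y - 1) / 2) = y - 1 := by field_simp
      refine ⟨(x, (y - 1) / 2), ?_, ?_⟩
      · simp only [Finset.mem_filter, Finset.mem_univ, true_and]
        have h4 : (4 : ZMod p) ≠ 0 := by
          have : (4 : ZMod p) = 2 ^ 2 := by norm_num
          rw [this]
          exact pow_ne_zero 2 h2
        apply mul_left_cancel₀ h4
        linear_combination hq + (2 * ((y - 1) / 2) + y + 1) * e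
      · simp only [Sigma.mk.injEq, heq_eq_eq, true_and]
        rw [e]
        ring
  have e2 : ((∑ x : ZMod p,
      ({y : ZMod p | y ^ 2 = 4 * x ^ 3 - 4 * x ^ 2 - 40 * x - 79}.toFinset).card : ℕ) : ℤ) =
      ∑ x : ZMod p, (quadraticChar (ZMod p) (4 * x ^ 3 - 4 * x ^ 2 - 40 * x - 79) + 1) := by
    push_cast
    refine Finset.sum_congr rfl fun x _ => ?_
    exact quadraticChar_card_sqrts hchar _
  rw [e1, e2, Finset.sum_add_distrib]
  simp [ZMod.card]

lemma cnt_bound {p : ℕ} (hp : p.Prime) (hp2 : p ≠ 2) : |(p : ℤ) - cnt p| ≤ p := by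
  have : Fact p.Prime := ⟨hp⟩
  rw [cnt_char hp2, abs_neg]
  calc _ ≤ ∑ t : ZMod p, |quadraticChar (ZMod p) (4 * t ^ 3 - 4 * t ^ 2 - 40 * t - 79)| :=
        Finset.abs_sum_le_sum_abs _ _
    _ ≤ ∑ t : ZMod p, (1 : ℤ) := by
        refine Finset.sum_le_sum fun t _ => ?_
        by_cases h : (4 * t ^ 3 - 4 * t ^ 2 - 40 * t - 79 : ZMod p) = 0
        · rw [h]
          simp
        · rcases quadraticChar_dichotomy h with h1 | h1 <;> rw [h1] <;> simp
    _ = p := by simp [ZMod.card]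

lemma cnt_five : cnt 5 = 4 := by
  unfold cnt
  rw [Nat.card_eq_fintype_card]
  decide

/-- **The glue.** -/
theorem glue (A : ℕ → ℤ)
    (hmod : ∀ (p : ℕ) [Fact p.Prime], p ≠ 2 → p ≠ 11 → ((A p : ℤ) : ZMod p) =
      -((∑ t : ZMod p, quadraticChar (ZMod p) (4 * t ^ 3 - 4 * t ^ 2 - 40 * t - 79) : ℤ) : ZMod p))
    (h5 : ∀ p : ℕ, p.Prime → p ≠ 11 → (5 : ℤ) ∣ A p - (1 + p))
    (hb : ∀ p : ℕ, p.Prime → p ≠ 11 → |A p| ≤ p + 1) (ha2 : A 2 = -2) (ha5 : A 5 = 1)
    (p : ℕ) (hp : p.Prime) (h11 : p ≠ 11) : A p = p - cnt p := by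
  rcases eq_or_ne p 2 with rfl | hp2
  · rw [ha2, cnt_two]
    norm_num
  rcases eq_or_ne p 5 with rfl | hp5
  · rw [ha5, cnt_five]
    norm_num
  have : Fact p.Prime := ⟨hp⟩
  have h1 : (p : ℤ) ∣ A p - (p - cnt p) := by
    rw [← ZMod.intCast_zmod_eq_zero_iff_dvd _ p, Int.cast_sub, hmod p hp2 h11, cnt_char hp2]
    push_cast
    ring
  have h2 : (5 : ℤ) ∣ A p - (p - cnt p) := by
    have h3 : ((5 : ℕ) : ℤ) ∣ ((cnt p + 1 : ℕ) : ℤ) := Int.natCast_dvd_natCast.2 (five_dvd_cnt hp h11)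
    have h4 := dvd_add (h5 p hp h11) h3
    push_cast at h4
    have : A p - (p - cnt p) = A p - (1 + p) + (cnt p + 1) := by ring
    rw [this]
    exact h4
  have hcop : IsCoprime (p : ℤ) 5 := by
    have : (5 : ℤ) = ((5 : ℕ) : ℤ) := rfl
    rw [this, Nat.isCoprime_iff_coprime]
    exact (Nat.coprime_primes hp (by norm_num)).2 hp5
  have h3 : (p : ℤ) * 5 ∣ A p - (p - cnt p) := hcop.mul_dvd h1 h2
  have h4 : |A p - (p - cnt p)| < (p : ℤ) * 5 := by
    have hb1 := hb p hp h11
    have hb2 := cnt_bound hp hp2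
    have hp' : (2 : ℤ) ≤ p := by exact_mod_cast hp.two_le
    have := abs_sub (A p) (p - cnt p)
    linarith
  have h5 := Int.eq_zero_of_abs_lt_dvd h3 h4
  linarith

end Vale.Agent.P004H.H742
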