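import Vale.Agent.P004H.H181.Mult
import Vale.Agent.P004H.H833.Dim1
import Vale.Agent.P004H.H792.Cusp11
import Vale.Agent.P004H.H792.Q11
import Vale.Agent.P004H.H924.Join
import Vale.Agent.P004H.H204.Fin
import Vale.Agent.P004H.H742.Glue

/-!
# P004H/H742: the coefficients of `eta(z)^2 eta(11 z)^2` are those of `X_0(11)`
-/

open PowerSeries P004G P004G.ML

namespace Vale.Agent.P004H.H742

open Function.Periodic in
/-- the relations of the coefficients of `F` -/
theorem rels : (∀ m n : ℕ, m.Coprime n → H792.a (m * n) = H792.a m * H792.a n) ∧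
      (∀ p : ℕ, p.Prime → p ≠ 11 → ∀ k : ℕ,
        H792.a (p ^ (k + 2)) = H792.a p * H792.a (p ^ (k + 1)) - p * H792.a (p ^ k)) ∧
      (∀ k : ℕ, H792.a (11 ^ k) = H792.a 11 ^ k) ∧
      (∀ n : ℕ, H792.a (11 * n) = H792.a 11 * H792.a n) ∧
      ∀ p : ℕ, p.Prime → p ≠ 11 → |H792.a p| ≤ p + 1 := by
  obtain ⟨-, -, h1, h2, h3, h5, h4⟩ := H181.all11 (a := H792.a) (F := H792.F11) (fun τ => by
    refine (H792.hasSum_F τ).congr_fun fun n => ?_
    simp only [smul_eq_mul]
    congr 2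
    unfold qParam H792.qq
    congr 1
    push_cast
    ring) H792.a_one (fun h => H833.dim1 h)
  exact ⟨h1, h2, h3, h5, h4⟩

/-- **Modularity of `X_0(11)`**: `a_p(eta(z)^2 eta(11z)^2) = a_p(X_0(11))` for all `p ≠ 11` -/
theorem coF : Co H792.a := by
  obtain ⟨h1, h2, h3, -, h4⟩ := rels
  obtain ⟨a0, a1, a2, -, -, a5, -, -, -, -, -, a11, -, -⟩ := H792.a_table
  have hf1 : constantCoeff (PowerSeries.mk (fun n => H792.a (n + 1))) = 1 := by
    rw [← coeff_zero_eq_constantCoeff_apply, coeff_mk]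
    exact a1
  refine ⟨a0, a1, h1, h2, fun k => by rw [h3, a11, one_pow], ?_⟩
  refine glue H792.a ?_ (fun p hp h11 => H204.a_prime_mod_five hp h11) h4 a2 a5
  intro p _ hp2 _
  have hQ := H204.quartic
  rw [H204.mk_a] at hQ
  have h := H924.join hf1 H204.const_Sz hQ p hp2
  rw [← H204.mk_a, coeff_mk] at h
  exact h

end Vale.Agent.P004H.H742
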