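import Vale.Agent.P004H.H641.St2
import Vale.Agent.P004H.H742.Loc311

/-!
# P004H/H742: Mathlib's `L`-functions of all quadratic twists of `X_0(11)` (row R7)
-/

open P004G P004G.ML

namespace Vale.Agent.P004H.H742

/-- **Row R7.** The coefficients of Mathlib's `L`-function of `E^(D)` are the coefficients of
`X_0(11)` times the Kronecker symbol. -/
theorem r7 (A : ℕ → ℤ) (hA : Co A) (D : ℤ) (hD : Fund1 D) (n : ℕ) :
    LA (-13392 * D ^ 2) (-1080432 * D ^ 3) n = A n * kron D n :=
  all H641.st7_2 st7_3 st7_11 A hA D hD n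

end Vale.Agent.P004H.H742
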