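import Vale.Agent.P004H.H641.Base
import Vale.Agent.P004H.H666.HasseC
import Vale.Agent.P004H.H742.CoF
import Vale.Agent.P004H.H742.R7

/-!
# P004H/H742: `BaseK`, unconditionally
-/

open P004G P004G.ML

namespace Vale.Agent.P004H.H742

/-- the coefficients of Mathlib's `L`-function of every quadratic twist of `X_0(11)` -/
theorem r7F (D : ℤ) (hD : Fund1 D) (n : ℕ) :
    LA (-13392 * D ^ 2) (-1080432 * D ^ 3) n = H792.a n * kron D n := r7 H792.a coF D hD n

/-- **Hasse's bound and the functional equations of all quadratic twists of `X_0(11)`** -/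
theorem baseKF : H641.BaseK := H641.baseK coF st7_3 st7_11 H666.hasse_cnt

end Vale.Agent.P004H.H742
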