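import Mathlib.NumberTheory.DirichletCharacter.Basic
import Vale.Agent.P004H.H742.L7

/-!
# P004H/H742: the Kronecker symbol of a fundamental discriminant is a primitive real character
-/

open WeierstrassCurve Polynomial P004G P004G.ML

namespace Vale.Agent.P004H.H742

lemma fund_form {D : ℤ} (hD : Fund1 D) : D % 4 = 1 ∨ ∃ d : ℤ, D = 4 * d := by
  rcases hD with rfl | ⟨-, ⟨h, -⟩ | ⟨d, rfl, h, -⟩⟩
  · left; norm_num
  · exact Or.inl h
  · exact Or.inr ⟨d, rfl⟩

lemma fund_ne {D : ℤ} (hD : Fund1 D) : D ≠ 0 := by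
  rcases hD with rfl | ⟨-, ⟨h, -⟩ | ⟨d, rfl, h, -⟩⟩
  · norm_num
  · omega
  · omega

/-! ### `D ≡ 1 mod 4` -/

lemma jac_recip {D : ℤ} (h : D % 4 = 1) {n : ℕ} (hn : n % 2 = 1) :
    jacobiSym D n = jacobiSym n D.natAbs := by
  have ho : Odd n := Nat.odd_iff.2 hn
  rcases Int.natAbs_eq D with hd | hd
  · have h4 : D.natAbs % 4 = 1 := by omega
    conv_lhs => rw [hd]
    exact jacobiSym.quadratic_reciprocity_one_mod_four h4 ho
  · have h4 : D.natAbs % 4 = 3 := by omega
    conv_lhs => rw [hd, jacobiSym.neg _ ho]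
    rcases (by omega : n % 4 = 1 ∨ n % 4 = 3) with h1 | h1
    · rw [ZMod.χ₄_nat_one_mod_four h1, one_mul]
      exact jacobiSym.quadratic_reciprocity_one_mod_four' (Nat.odd_iff.2 (by omega)) h1
    · rw [ZMod.χ₄_nat_three_mod_four h1,
        jacobiSym.quadratic_reciprocity_three_mod_four h4 h1]
      ring

lemma k2_recip {D : ℤ} (h : D % 4 = 1) : k2 D = jacobiSym 2 D.natAbs := by
  have ho : Odd D.natAbs := Nat.odd_iff.2 (by omega)
  rw [jacobiSym.at_two ho, ZMod.χ₈_nat_eq_if_mod_eight]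
  unfold k2
  have h2 : ¬ D % 2 = 0 := by omega
  have h3 : ¬ D.natAbs % 2 = 0 := by omega
  rw [if_neg h2, if_neg h3]
  by_cases h1 : D % 8 = 1
  · have h5 : D.natAbs % 8 = 1 ∨ D.natAbs % 8 = 7 := by omega
    rw [if_pos h1, if_pos h5]
  · have h5 : ¬ (D.natAbs % 8 = 1 ∨ D.natAbs % 8 = 7) := by omega
    rw [if_neg h1, if_neg h5]

lemma kron_recip {D : ℤ} (h : D % 4 = 1) {n : ℕ} (hn : n ≠ 0) :
    kron D n = jacobiSym n D.natAbs := by
  unfold kron
  obtain ⟨c, hc⟩ : 2 ^ padicValNat 2 n ∣ n := pow_padicValNat_dvd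
  have hodd : ¬ 2 ∣ n / 2 ^ padicValNat 2 n := by
    have := Nat.not_dvd_ordCompl (p := 2) Nat.prime_two hn
    rwa [Nat.factorization_def n Nat.prime_two] at this
  have hmod : (n / 2 ^ padicValNat 2 n) % 2 = 1 := by omega
  have hn2 : n = 2 ^ padicValNat 2 n * (n / 2 ^ padicValNat 2 n) :=
    (Nat.mul_div_cancel' pow_padicValNat_dvd).symm
  rw [jac_recip h hmod, k2_recip h, ← jacobiSym.pow_left, ← jacobiSym.mul_left]
  congr 1
  have := congrArg (fun z : ℕ => (z : ℤ)) hn2
  push_cast at this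
  rw [this]
  push_cast
  rfl

/-! ### `D = 4 d` -/

lemma kron_even {D : ℤ} (h : D % 2 = 0) {n : ℕ} (hn : n % 2 = 0) (hn0 : n ≠ 0) : kron D n = 0 := by
  unfold kron
  have h1 : padicValNat 2 n ≠ 0 := by
    have := (dvd_iff_padicValNat_ne_zero (p := 2) hn0).1 (by omega)
    exact this
  have : k2 D = 0 := by unfold k2; rw [if_pos h]
  rw [this, zero_pow h1, zero_mul]

lemma jac_four {n : ℕ} (hn : n % 2 = 1) : jacobiSym 4 n = 1 := by
  have h2 : (4 : ℤ) = 2 ^ 2 := by norm_num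
  rw [h2]
  apply jacobiSym.sq_one'
  have : Nat.Coprime 2 n := (Nat.coprime_two_left).2 (Nat.odd_iff.2 hn)
  simpa [Int.gcd] using this

lemma kron_four {d : ℤ} {n : ℕ} (hn : n % 2 = 1) : kron (4 * d) n = jacobiSym d n := by
  rw [kron_odd _ hn, jacobiSym.mul_left, jac_four hn, one_mul]

/-! ### periodicity and zeros -/

lemma kron_mod {D : ℤ} (hD : Fund1 D) {n n' : ℕ} (hn : n ≠ 0) (hn' : n' ≠ 0)
    (h : n ≡ n' [MOD D.natAbs]) : kron D n = kron D n' := by
  rcases fund_form hD with h1 | ⟨d, rfl⟩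
  · rw [kron_recip h1 hn, kron_recip h1 hn']
    apply jacobiSym.mod_left'
    exact_mod_cast (Int.natCast_modEq_iff.2 h)
  · have h4 : (4 * d).natAbs = 4 * d.natAbs := by omega
    rw [h4] at h
    have h2 : n ≡ n' [MOD 4] := h.of_mul_right _
    have h2' : n % 4 = n' % 4 := h2
    rcases Nat.mod_two_eq_zero_or_one n with h3 | h3
    · rw [kron_even (by omega) h3 hn, kron_even (by omega) (by omega) hn']
    · have h3' : n' % 2 = 1 := by omega
      rw [kron_four h3, kron_four h3', jacobiSym.mod_right d (Nat.odd_iff.2 h3),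
        jacobiSym.mod_right d (Nat.odd_iff.2 h3')]
      rw [show n % (4 * d.natAbs) = n' % (4 * d.natAbs) from h]

lemma kron_zero {D : ℤ} {n : ℕ} (hn : n ≠ 0) (h : ¬ n.Coprime D.natAbs) :
    kron D n = 0 := by
  obtain ⟨p, hp, hpn, hpD⟩ := Nat.Prime.not_coprime_iff_dvd.1 h
  obtain ⟨c, rfl⟩ := hpn
  have hc : c ≠ 0 := by rintro rfl; simp at hn
  rw [kron_mul D hp.ne_zero hc]
  have : kron D p = 0 := by
    rcases eq_or_ne p 2 with rfl | hp2
    · have h2 : D % 2 = 0 := by omega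
      exact kron_even h2 (by norm_num) (by norm_num)
    · have hodd : p % 2 = 1 := by
        rcases hp.eq_two_or_odd with h | h
        · exact absurd h hp2
        · exact h
      rw [kron_odd D hodd]
      exact jac_zero hp (Int.natCast_dvd.2 hpD)
  rw [this, zero_mul]

/-! ### the character -/

/-- the quadratic character of the fundamental discriminant `D` -/
noncomputable def chiZ (D : ℤ) (hD : Fund1 D) : DirichletCharacter ℤ D.natAbs where
  toFun x := kron D (x.val + D.natAbs)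
  map_one' := by
    have h0 : D.natAbs ≠ 0 := Int.natAbs_ne_zero.2 (fund_ne hD)
    have : NeZero D.natAbs := ⟨h0⟩
    rw [← kron_one D]
    apply kron_mod hD (by omega) one_ne_zero
    rw [← ZMod.natCast_eq_natCast_iff]
    simp
  map_mul' x y := by
    have h0 : D.natAbs ≠ 0 := Int.natAbs_ne_zero.2 (fund_ne hD)
    have : NeZero D.natAbs := ⟨h0⟩
    rw [← kron_mul D (by omega) (by omega)]
    apply kron_mod hD (by omega) (mul_ne_zero (by omega) (by omega))
    rw [← ZMod.natCast_eq_natCast_iff]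
    simp
  map_nonunit' x hx := by
    have h0 : D.natAbs ≠ 0 := Int.natAbs_ne_zero.2 (fund_ne hD)
    have : NeZero D.natAbs := ⟨h0⟩
    apply kron_zero (by omega)
    intro h
    apply hx
    have := (ZMod.isUnit_iff_coprime (x.val + D.natAbs) D.natAbs).2 h
    simpa using this

lemma chiZ_natCast {D : ℤ} (hD : Fund1 D) {n : ℕ} (hn : n ≠ 0) :
    chiZ D hD (n : ZMod D.natAbs) = kron D n := by
  have h0 : D.natAbs ≠ 0 := Int.natAbs_ne_zero.2 (fund_ne hD)
  have : NeZero D.natAbs := ⟨h0⟩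
  apply kron_mod hD (by omega) hn
  rw [← ZMod.natCast_eq_natCast_iff]
  simp

/-- the quadratic character of the fundamental discriminant `D`, complex valued -/
noncomputable def chiD (D : ℤ) (hD : Fund1 D) : DirichletCharacter ℂ D.natAbs :=
  (chiZ D hD).ringHomComp (Int.castRingHom ℂ)

lemma chiD_apply {D : ℤ} (hD : Fund1 D) (x : ZMod D.natAbs) :
    chiD D hD x = ((chiZ D hD x : ℤ) : ℂ) := rfl

lemma chiD_natCast {D : ℤ} (hD : Fund1 D) {n : ℕ} (hn : n ≠ 0) :
    chiD D hD (n : ZMod D.natAbs) = (kron D n : ℂ) := by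
  rw [chiD_apply, chiZ_natCast hD hn]

/-! ### the value at `-1` -/

lemma chiZ_neg_one {D : ℤ} (hD : Fund1 D) : chiZ D hD (-1) = D.sign := by
  have h0 : D.natAbs ≠ 0 := Int.natAbs_ne_zero.2 (fund_ne hD)
  have : NeZero D.natAbs := ⟨h0⟩
  have hcast : (-1 : ZMod D.natAbs) = ((4 * D.natAbs - 1 : ℕ) : ZMod D.natAbs) := by
    rw [Nat.cast_sub (by omega)]
    simp
  rw [hcast, chiZ_natCast hD (by omega)]
  rcases fund_form hD with h1 | ⟨d, rfl⟩
  · rw [kron_recip h1 (by omega)]
    have ho : Odd D.natAbs := Nat.odd_iff.2 (by omega)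
    have h2 : jacobiSym ((4 * D.natAbs - 1 : ℕ) : ℤ) D.natAbs = jacobiSym (-1) D.natAbs := by
      apply jacobiSym.mod_left'
      rw [Nat.cast_sub (by omega)]
      have h3 : ((4 * D.natAbs : ℕ) : ℤ) - (1 : ℕ) - (-1) = (D.natAbs : ℤ) * 4 := by
        push_cast
        ring
      exact (Int.ModEq.symm ((Int.modEq_iff_dvd).2 ⟨4, h3⟩))
    rw [h2, jacobiSym.at_neg_one ho]
    rcases lt_or_gt_of_ne (fund_ne hD) with h | h
    · rw [ZMod.χ₄_nat_three_mod_four (by omega), Int.sign_eq_neg_one_of_neg h]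
    · rw [ZMod.χ₄_nat_one_mod_four (by omega), Int.sign_eq_one_of_pos h]
  · have hd0 : d ≠ 0 := by
      rintro rfl
      simp at h0
    have h4 : (4 * d).natAbs = 4 * d.natAbs := by omega
    set N := 4 * (4 * d).natAbs - 1 with hN
    have hodd : N % 2 = 1 := by omega
    have ho : Odd N := Nat.odd_iff.2 hodd
    rw [kron_four hodd]
    have hpos : jacobiSym (d.natAbs : ℤ) N = 1 := by
      have h5 : jacobiSym (4 * (4 * (d.natAbs : ℤ))) N = 1 := by
        rw [← jacobiSym.one_left N]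
        apply jacobiSym.mod_left'
        have h6 : 4 * (4 * (d.natAbs : ℤ)) - 1 = (N : ℤ) * 1 := by
          rw [hN, Nat.cast_sub (by omega), h4]
          push_cast
          ring
        exact Int.ModEq.symm ((Int.modEq_iff_dvd).2 ⟨1, h6⟩)
      rwa [jacobiSym.mul_left, jacobiSym.mul_left, jac_four hodd, one_mul, one_mul] at h5
    rcases lt_or_gt_of_ne hd0 with h | h
    · have e : d = -(d.natAbs : ℤ) := by omega
      rw [e, jacobiSym.neg _ ho, hpos, ZMod.χ₄_nat_three_mod_four (by omega),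
        Int.sign_eq_neg_one_of_neg (by omega)]
      norm_num
    · have e : d = (d.natAbs : ℤ) := by omega
      rw [e, hpos, Int.sign_eq_one_of_pos (by omega)]

end Vale.Agent.P004H.H742
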